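import Mathlib
import Vale.Agent.P105.Defs
import Vale.Agent.P105.Salem

namespace Vale.Agent.Results.P105.A_nonPisot

open Vale.Agent.P105

/-- There are singular Bernoulli convolutions with parameter in `(1/2, 1)` whose reciprocal is
not a Pisot number: the reciprocals of the two quartic Salem numbers in `(1, 2)`. -/
theorem result :
    (∃ lam ∈ Set.Ioo (1 / 2 : ℝ) 1, lam ^ 4 - lam ^ 3 - lam ^ 2 - lam + 1 = 0 ∧
      ¬ IsPisot lam⁻¹ ∧ IsSingular (bernoulliConv lam)) ∧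
    (∃ lam ∈ Set.Ioo (1 / 2 : ℝ) 1, lam ^ 4 - 2 * lam ^ 3 + lam ^ 2 - 2 * lam + 1 = 0 ∧
      ¬ IsPisot lam⁻¹ ∧ IsSingular (bernoulliConv lam)) := by
  obtain ⟨a, ha, ha'⟩ := exists_root_one
  obtain ⟨b, hb, hb'⟩ := exists_root_two
  exact ⟨⟨a, ha, ha', main_one ha ha'⟩, ⟨b, hb, hb', main_two hb hb'⟩⟩

end Vale.Agent.Results.P105.A_nonPisot
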